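import Vale.Agent.P310d.Main

/-!
# Deciding Weisfeiler-Leman equivalence at dimension `k` needs time `n ^ Ω(k)`
-/

namespace Vale.Agent.Results.P310.AnyDimension

open Vale.Agent.P310d

/-- There are constants `c`, `c'` such that for all `g`, and all `k ≥ c * g + c'`, no deterministic
single-tape Turing machine decides `k`-dimensional Weisfeiler-Leman equivalence of pairs of `n`-vertex
graphs, given by their adjacency matrices, within `C * n ^ g` steps for all large `n`. -/
theorem result : ∃ c c' : ℕ, ∀ g k : ℕ, c * g + c' ≤ k →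
    ∀ (Q Γ : Type) [Finite Q] [Finite Γ] (M : TM Q Γ) (C n0 : ℕ), ¬ DecidesWithin M k C n0 g :=
  ⟨492, cst, fun _ _ hkg _ _ _ _ M C n0 => main_all hkg M C n0⟩

end Vale.Agent.Results.P310.AnyDimension
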