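import Vale.Agent.P310h2.Size

open Vale.Agent.P310h2 in
/-- For a graph `X` on `n` vertices and `k ≥ 1`: the explicit uncoloured graphs
`(machine X k).graph false` and `(machine X k).graph true`, on one common vertex set of polynomial
size, are not `(2 * k + 1)`-dimensionally Weisfeiler-Leman equivalent exactly when `X` has a
`k`-clique. -/
theorem Vale.Agent.Results.P310.CliqueReduction.result {n : ℕ} (X : SimpleGraph (Fin n)) (k : ℕ)
    (hk : 1 ≤ k) :
    ((∃ S : Finset (Fin n), X.IsNClique k S) ↔
      ¬ WLEquiv ((machine X k).graph false) ((machine X k).graph true) (2 * k + 1)) ∧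
    Nat.card (machine X k).Vtx ≤ (n + 2 * k + 11) ^ 110 :=
  main_theorem X k hk
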