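import Vale.Agent.P310x.Final

open Vale.Agent.P310x Filter Asymptotics in
/-- The answer to the first question, unconditionally, for multi-tape Turing machines on adjacency
matrices. There is no function `g` with `g k = o(k)` such that for each `k ≥ 2` some machine decides
`k`-dimensional Weisfeiler-Leman equivalence in time `O(n ^ g k)`. More precisely, there are `c > 0`
and `m0` such that for each even `m ≥ m0`, no machine decides `m`-dimensional equivalence in time
`O(n ^ (c * m))`. -/
theorem Vale.Agent.Results.P310.LowerBound.result :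
    (¬ ∃ g : ℕ → ℝ, g =o[atTop] (fun k : ℕ => (k : ℝ)) ∧
      ∀ k : ℕ, 2 ≤ k → ∃ M : TM, M.Decides k ∧
        (fun n : ℕ => (M.worstTime n : ℝ)) =O[atTop] fun n : ℕ => (n : ℝ) ^ g k) ∧
    (∃ c : ℝ, 0 < c ∧ ∃ m0 : ℕ, ∀ m : ℕ, m0 ≤ m → Even m → ∀ M : TM, M.Decides m →
      ¬ (fun n : ℕ => (M.worstTime n : ℝ)) =O[atTop] fun n : ℕ => (n : ℝ) ^ (c * m)) :=
  ⟨no_small_exponent, lower_bound⟩
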