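import Vale.Agent.P310d.Main
import Vale.Agent.P310d.Sim

/-!
# Weisfeiler-Leman equivalence at dimension `m` needs time `n ^ Ω(m)`, for every large `m`

The statement is for deterministic multi-tape Turing machines (`Vale.Agent.P310x.TM`) reading the
adjacency matrices of the two graphs, with any finite number of two-way infinite tapes, any finite
alphabet and any finite set of states. There is no parity condition on the dimension.
-/

namespace Vale.Agent.Results.P310.MultiTapeAllK

open Filter Asymptotics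

/-- Arithmetic: the exponent fits the hypothesis of the main theorem. -/
private theorem exponent_fits {m : ℕ} (hm : 4656 ≤ m) :
    492 * (2 * ⌈(m : ℝ) / 1968⌉₊) + Vale.Agent.P310d.cst ≤ m := by
  have hc := Nat.ceil_lt_add_one (a := (m : ℝ) / 1968) (by positivity)
  have hcst : Vale.Agent.P310d.cst = 1344 := rfl
  rw [hcst]
  have h1 : (((492 * (2 * ⌈(m : ℝ) / 1968⌉₊) + 1344 : ℕ)) : ℝ) ≤ m := by
    have hm' : (4656 : ℝ) ≤ m := by exact_mod_cast hm
    push_cast
    nlinarith
  exact_mod_cast h1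

/-- No deterministic multi-tape Turing machine decides `m`-dimensional equivalence in time
`O(n ^ (m / 1968))`, once `m ≥ 4656`. -/
theorem lower_bound (m : ℕ) (hm : 4656 ≤ m) (M : Vale.Agent.P310x.TM) (hM : M.Decides m) :
    ¬ (fun n : ℕ => (M.worstTime n : ℝ)) =O[atTop] fun n : ℕ => (n : ℝ) ^ ((m : ℝ) / 1968) := by
  intro hT
  obtain ⟨Q, Γ, h1, h2, N, C, n0, hN⟩ := Vale.Agent.P310d.sim_decides M m hM _ hT
  exact Vale.Agent.P310d.main_all (exponent_fits hm) N C n0 hN

/-- There is no `g` with `g k = o(k)` such that each `k ≥ 2` has a machine with worst case time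
`O(n ^ g k)`; more precisely, for each `m ≥ 4656`, no deterministic multi-tape Turing machine decides
`m`-dimensional Weisfeiler-Leman equivalence in time `O(n ^ (m / 1968))`. -/
theorem result :
    (¬ ∃ g : ℕ → ℝ, g =o[atTop] (fun k : ℕ => (k : ℝ)) ∧
      ∀ k : ℕ, 2 ≤ k → ∃ M : Vale.Agent.P310x.TM, M.Decides k ∧
        (fun n : ℕ => (M.worstTime n : ℝ)) =O[atTop] fun n : ℕ => (n : ℝ) ^ g k) ∧
    (∀ m : ℕ, 4656 ≤ m → ∀ M : Vale.Agent.P310x.TM, M.Decides m →
      ¬ (fun n : ℕ => (M.worstTime n : ℝ)) =O[atTop] fun n : ℕ => (n : ℝ) ^ ((m : ℝ) / 1968)) := by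
  refine ⟨?_, lower_bound⟩
  rintro ⟨g, hg, h⟩
  have hc : (0 : ℝ) < 1 / 1968 := by norm_num
  have h1 := hg.def hc
  obtain ⟨k0, hk0⟩ := Filter.eventually_atTop.1 h1
  have hk := hk0 (max k0 4656) (le_max_left _ _)
  have h4656 : 4656 ≤ max k0 4656 := le_max_right _ _
  obtain ⟨M, hM, hT⟩ := h (max k0 4656) (by omega)
  refine lower_bound _ h4656 M hM (hT.trans ?_)
  set k := max k0 4656
  have hk' : g k ≤ (k : ℝ) / 1968 := by
    have h2 := le_trans (le_abs_self (g k)) hk
    simp only [Real.norm_natCast] at h2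
    linarith
  refine IsBigO.of_bound 1 ?_
  filter_upwards [eventually_ge_atTop 1] with n hn
  have hn' : (1 : ℝ) ≤ n := by exact_mod_cast hn
  have h3 : (n : ℝ) ^ g k ≤ (n : ℝ) ^ ((k : ℝ) / 1968) := Real.rpow_le_rpow_of_exponent_le hn' hk'
  rw [Real.norm_of_nonneg (by positivity), Real.norm_of_nonneg (by positivity), one_mul]
  exact h3

end Vale.Agent.Results.P310.MultiTapeAllK
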